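/-
(COR) of Theorem T (helper781 #12061): from nodes to Taylor columns.
helper204.
-/
import Mathlib

open Complex MeasureTheory Metric Set Finset
open scoped Real Topology

namespace Vale.Agent.P030.H204

noncomputable section

/-- circle average of the exponential of a function -/
def avgExp (φ : ℂ → ℝ) (r : ℝ) : ℝ := (2 * π)⁻¹ * ∫ θ in (0 : ℝ)..2 * π, Real.exp (φ (circleMap 0 r θ))

/-- The Laurent/Taylor functional `(2πi)⁻¹ ∮ f z z^{-k-1} dz` on the circle of radius `r`. -/
def coefC (r : ℝ) (k : ℤ) (f : ℂ → ℂ) : ℂ :=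
  (2 * π * I)⁻¹ * ∮ z in C(0, r), f z * z ^ (-k - 1)

lemma avgExp_eq_circleAverage (φ : ℂ → ℝ) (r : ℝ) :
    avgExp φ r = Real.circleAverage (fun z => Real.exp (φ z)) 0 r := by
  unfold avgExp Real.circleAverage
  rw [smul_eq_mul]

lemma coefC_eq (r : ℝ) (hr : 0 < r) (k : ℤ) (f : ℂ → ℂ) :
    coefC r k f = (2 * π : ℂ)⁻¹ * ∫ θ in (0 : ℝ)..2 * π, f (circleMap 0 r θ) * (circleMap 0 r θ) ^ (-k) := by
  unfold coefC circleIntegral
  have h : ∀ θ : ℝ, deriv (circleMap 0 r) θ • (f (circleMap 0 r θ) * circleMap 0 r θ ^ (-k - 1))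
      = I * (f (circleMap 0 r θ) * circleMap 0 r θ ^ (-k)) := by
    intro θ
    have hne : circleMap 0 r θ ≠ 0 := by
      simp [circleMap, hr.ne']
    rw [deriv_circleMap, smul_eq_mul, sub_eq_add_neg, zpow_add₀ hne]
    field_simp
  simp_rw [h]
  rw [intervalIntegral.integral_const_mul]
  have hI : (I : ℂ) ≠ 0 := I_ne_zero
  field_simp

lemma cm_mem (r : ℝ) (hr : 0 < r) (θ : ℝ) : circleMap 0 r θ ∈ sphere (0 : ℂ) r :=
  circleMap_mem_sphere 0 hr.le θ

lemma cont_comp {E : Type*} [TopologicalSpace E] (r : ℝ) (hr : 0 < r) {g : ℂ → E}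
    (hg : ContinuousOn g (sphere (0 : ℂ) r)) : Continuous fun θ : ℝ => g (circleMap 0 r θ) :=
  hg.comp_continuous (continuous_circleMap 0 r) (cm_mem r hr)

lemma norm_coefC_le (r : ℝ) (hr : 0 < r) (k : ℤ) (f : ℂ → ℂ) (φ : ℂ → ℝ) (B : ℝ)
    (hφ : ContinuousOn φ (sphere (0 : ℂ) r))
    (h : ∀ z ∈ sphere (0 : ℂ) r, ‖f z‖ ≤ B * Real.exp (φ z)) :
    ‖coefC r k f‖ ≤ B * (r ^ (-k) * avgExp φ r) := by
  rw [coefC_eq r hr]
  have hpi : (0 : ℝ) < 2 * π := by positivity
  have hnorm : ‖(2 * π : ℂ)⁻¹‖ = (2 * π)⁻¹ := by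
    rw [norm_inv]
    congr 1
    rw [norm_mul]
    simp [abs_of_pos Real.pi_pos]
  rw [norm_mul, hnorm]
  have hc : Continuous fun θ : ℝ => Real.exp (φ (circleMap 0 r θ)) :=
    Real.continuous_exp.comp (cont_comp r hr hφ)
  have h1 : ‖∫ θ in (0 : ℝ)..2 * π, f (circleMap 0 r θ) * (circleMap 0 r θ) ^ (-k)‖
      ≤ ∫ θ in (0 : ℝ)..2 * π, B * r ^ (-k) * Real.exp (φ (circleMap 0 r θ)) := by
    apply intervalIntegral.norm_integral_le_of_norm_le hpi.le
    · apply Filter.Eventually.of_forall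
      intro θ _
      have hn : ‖circleMap 0 r θ‖ = r := by
        have := cm_mem r hr θ
        simpa using this
      rw [norm_mul, norm_zpow, hn]
      have := h _ (cm_mem r hr θ)
      have hr' : (0 : ℝ) < r ^ (-k) := zpow_pos hr _
      calc ‖f (circleMap 0 r θ)‖ * r ^ (-k) ≤ (B * Real.exp (φ (circleMap 0 r θ))) * r ^ (-k) :=
            mul_le_mul_of_nonneg_right this hr'.le
        _ = _ := by ring
    · exact (continuous_const.mul hc).intervalIntegrable _ _
  rw [intervalIntegral.integral_const_mul] at h1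
  unfold avgExp
  have h2 : (0 : ℝ) < (2 * π)⁻¹ := by positivity
  calc (2 * π)⁻¹ * ‖∫ θ in (0 : ℝ)..2 * π, f (circleMap 0 r θ) * (circleMap 0 r θ) ^ (-k)‖
      ≤ (2 * π)⁻¹ * (B * r ^ (-k) * ∫ θ in (0 : ℝ)..2 * π, Real.exp (φ (circleMap 0 r θ))) :=
        mul_le_mul_of_nonneg_left h1 h2.le
    _ = _ := by ring

variable {ι : Type*} [Fintype ι] [DecidableEq ι]

lemma det_updateCol_sum (A : Matrix ι ι ℂ) (c : ι) (b : ι → ℂ) :
    (A.updateCol c b).det = ∑ i, A.adjugate c i * b i := by
  rw [← Matrix.cramer_apply, Matrix.cramer_eq_adjugate_mulVec]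
  rfl

/-- linearity of the determinant in one column, under the Cauchy functional -/
lemma det_updateCol_coefC (A : Matrix ι ι ℂ) (c : ι) (w : ℂ → ι → ℂ) (r : ℝ) (hr : 0 < r) (k : ℤ)
    (hw : ∀ i, ContinuousOn (fun z => w z i) (sphere (0 : ℂ) r)) :
    (A.updateCol c (fun i => coefC r k (fun z => w z i))).det
      = coefC r k (fun z => (A.updateCol c (w z)).det) := by
  rw [det_updateCol_sum]
  simp_rw [det_updateCol_sum]
  have hne : ∀ θ : ℝ, circleMap 0 r θ ≠ 0 := by
    intro θ
    simp [circleMap, hr.ne']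
  have hz : Continuous fun θ : ℝ => (circleMap 0 r θ) ^ (-k) := by
    apply Continuous.zpow₀ (continuous_circleMap 0 r)
    intro θ
    exact Or.inl (hne θ)
  simp_rw [coefC_eq r hr, sum_mul]
  rw [intervalIntegral.integral_finsetSum]
  · rw [mul_sum]
    apply sum_congr rfl
    intro i _
    have : (fun θ : ℝ => A.adjugate c i * w (circleMap 0 r θ) i * circleMap 0 r θ ^ (-k))
        = fun θ : ℝ => A.adjugate c i * (w (circleMap 0 r θ) i * circleMap 0 r θ ^ (-k)) := by
      funext θ; ring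
    rw [this, intervalIntegral.integral_const_mul]
    ring
  · intro i _
    apply Continuous.intervalIntegrable
    exact ((cont_comp r hr (hw i)).const_mul _ |>.mul hz)

/-- The matrix in which the columns `c ∈ s` are Taylor columns and the others are nodes. -/
def mixM (v : ι → ℂ → ι → ℂ) (r : ι → ℝ) (k : ι → ℤ) (s : Finset ι) (z : ι → ℂ) : Matrix ι ι ℂ :=
  Matrix.of fun i c => if c ∈ s then coefC (r c) (k c) (fun w => v c w i) else v c (z c) i

/-- **(COR), general form.** If the determinant of the node matrix is bounded by `B ∏ exp φ_c(z_c)` on the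
product of the circles, then so is every mixed determinant, with the factor of a Taylor column `c ∈ s`
replaced by `r_c^{-k_c}` times the circle average of `exp φ_c`. -/
theorem det_mix_le (v : ι → ℂ → ι → ℂ) (r : ι → ℝ) (hr : ∀ c, 0 < r c) (k : ι → ℤ)
    (hv : ∀ c i, ContinuousOn (fun z => v c z i) (sphere (0 : ℂ) (r c)))
    (φ : ι → ℂ → ℝ) (hφ : ∀ c, ContinuousOn (φ c) (sphere (0 : ℂ) (r c))) (B : ℝ)
    (h : ∀ z : ι → ℂ, (∀ c, z c ∈ sphere (0 : ℂ) (r c)) →
      ‖(Matrix.of fun i c => v c (z c) i).det‖ ≤ B * ∏ c, Real.exp (φ c (z c)))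
    (s : Finset ι) (z : ι → ℂ) (hz : ∀ c, c ∉ s → z c ∈ sphere (0 : ℂ) (r c)) :
    ‖(mixM v r k s z).det‖
      ≤ B * ∏ c, (if c ∈ s then (r c) ^ (-(k c)) * avgExp (φ c) (r c) else Real.exp (φ c (z c))) := by
  induction s using Finset.induction_on generalizing z with
  | empty =>
    have := h z (fun c => hz c (by simp))
    simpa [mixM] using this
  | insert a s ha ih =>
    have hcol : mixM v r k (insert a s) z
        = (mixM v r k s z).updateCol a (fun i => coefC (r a) (k a) (fun w => v a w i)) := by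
      ext i c
      by_cases hc : c = a
      · subst hc
        simp [mixM]
      · simp [mixM, hc, Finset.mem_insert]
    rw [hcol, det_updateCol_coefC _ _ _ _ (hr a) _ (hv a)]
    have hupd : ∀ w : ℂ, (mixM v r k s z).updateCol a (v a w) = mixM v r k s (Function.update z a w) := by
      intro w
      ext i c
      by_cases hc : c = a
      · subst hc
        simp [mixM, ha]
      · simp [mixM, hc, Function.update_of_ne]
    set R : ℝ := ∏ c ∈ univ.erase a,
      (if c ∈ s then (r c) ^ (-(k c)) * avgExp (φ c) (r c) else Real.exp (φ c (z c))) with hR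
    have hb : ∀ w ∈ sphere (0 : ℂ) (r a),
        ‖((mixM v r k s z).updateCol a (v a w)).det‖ ≤ (B * R) * Real.exp (φ a w) := by
      intro w hw
      rw [hupd w]
      have := ih (Function.update z a w) (by
        intro c hc
        by_cases hca : c = a
        · subst hca
          simpa using hw
        · rw [Function.update_of_ne hca]
          exact hz c (by simp [hca, hc]))
      refine this.trans (le_of_eq ?_)
      rw [← mul_prod_erase univ _ (mem_univ a)]
      simp only [ha, if_false, Function.update_self]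
      have : ∏ c ∈ univ.erase a, (if c ∈ s then (r c) ^ (-(k c)) * avgExp (φ c) (r c)
            else Real.exp (φ c (Function.update z a w c))) = R := by
        rw [hR]
        apply prod_congr rfl
        intro c hc
        rw [Function.update_of_ne (Finset.ne_of_mem_erase hc)]
      rw [this]
      ring
    have := norm_coefC_le (r a) (hr a) (k a) _ (φ a) (B * R) (hφ a) hb
    refine this.trans (le_of_eq ?_)
    rw [← mul_prod_erase univ _ (mem_univ a)]
    have h1 : (if a ∈ insert a s then (r a) ^ (-(k a)) * avgExp (φ a) (r a) else Real.exp (φ a (z a)))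
        = (r a) ^ (-(k a)) * avgExp (φ a) (r a) := by simp
    have h2 : ∏ c ∈ univ.erase a, (if c ∈ insert a s then (r c) ^ (-(k c)) * avgExp (φ c) (r c)
            else Real.exp (φ c (z c))) = R := by
      rw [hR]
      apply prod_congr rfl
      intro c hc
      have hca : c ≠ a := Finset.ne_of_mem_erase hc
      simp [Finset.mem_insert, hca]
    rw [h1, h2]
    ring

/-- **(COR), all columns Taylor columns.** -/
theorem det_coef_le (v : ι → ℂ → ι → ℂ) (r : ι → ℝ) (hr : ∀ c, 0 < r c) (k : ι → ℤ)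
    (hv : ∀ c i, ContinuousOn (fun z => v c z i) (sphere (0 : ℂ) (r c)))
    (φ : ι → ℂ → ℝ) (hφ : ∀ c, ContinuousOn (φ c) (sphere (0 : ℂ) (r c))) (B : ℝ)
    (h : ∀ z : ι → ℂ, (∀ c, z c ∈ sphere (0 : ℂ) (r c)) →
      ‖(Matrix.of fun i c => v c (z c) i).det‖ ≤ B * ∏ c, Real.exp (φ c (z c))) :
    ‖(Matrix.of fun i c => coefC (r c) (k c) (fun w => v c w i)).det‖
      ≤ B * ∏ c, ((r c) ^ (-(k c)) * avgExp (φ c) (r c)) := by
  have := det_mix_le v r hr k hv φ hφ B h univ (fun _ => 0) (by simp)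
  simpa [mixM] using this

/-- constant majorants on the circles -/
theorem det_coef_le_const (v : ι → ℂ → ι → ℂ) (r : ι → ℝ) (hr : ∀ c, 0 < r c) (k : ι → ℤ)
    (hv : ∀ c i, ContinuousOn (fun z => v c z i) (sphere (0 : ℂ) (r c)))
    (b : ι → ℝ) (B : ℝ)
    (h : ∀ z : ι → ℂ, (∀ c, z c ∈ sphere (0 : ℂ) (r c)) →
      ‖(Matrix.of fun i c => v c (z c) i).det‖ ≤ B * ∏ c, Real.exp (b c)) :
    ‖(Matrix.of fun i c => coefC (r c) (k c) (fun w => v c w i)).det‖
      ≤ B * ∏ c, ((r c) ^ (-(k c)) * Real.exp (b c)) := by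
  have := det_coef_le v r hr k hv (fun c _ => b c) (fun c => continuousOn_const) B h
  refine this.trans (le_of_eq ?_)
  congr 1
  apply prod_congr rfl
  intro c _
  congr 1
  unfold avgExp
  have hpi : (2 * π : ℝ) ≠ 0 := by positivity
  simp only [intervalIntegral.integral_const, sub_zero, smul_eq_mul]
  field_simp

/-- the Cauchy functional of order `k : ℕ` is the Taylor coefficient -/
theorem coefC_taylor (f : ℂ → ℂ) (p : FormalMultilinearSeries ℂ ℂ ℂ) (R : ENNReal)
    (hf : HasFPowerSeriesOnBall f p 0 R) (r : ℝ) (hr : 0 < r) (hrR : ENNReal.ofReal r < R) (k : ℕ) :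
    coefC r (k : ℤ) f = p.coeff k := by
  have hd : DifferentiableOn ℂ f (closedBall 0 r) := by
    intro z hz
    have hz' : z ∈ Metric.eball (0 : ℂ) R := by
      rw [Metric.mem_eball, edist_dist]
      exact lt_of_le_of_lt (ENNReal.ofReal_le_ofReal (mem_closedBall.mp hz)) hrR
    exact (hf.differentiableOn z hz').mono_of_mem_nhdsWithin
      (mem_nhdsWithin_of_mem_nhds (Metric.isOpen_eball.mem_nhds hz')) 
  obtain ⟨r', rfl⟩ : ∃ r' : NNReal, (r' : ℝ) = r := ⟨⟨r, hr.le⟩, rfl⟩
  have hr0 : 0 < r' := by exact_mod_cast hr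
  have h1 := hd.hasFPowerSeriesOnBall hr0
  have h2 : p = cauchyPowerSeries f 0 r' :=
    hf.hasFPowerSeriesAt.eq_formalMultilinearSeries h1.hasFPowerSeriesAt
  rw [h2]
  unfold FormalMultilinearSeries.coeff coefC
  have h3 := cauchyPowerSeries_apply f 0 r' k 1
  have h4 : (1 : Fin k → ℂ) = fun _ => (1 : ℂ) := rfl
  rw [h4, h3, smul_eq_mul]
  congr 1
  apply circleIntegral.integral_congr hr.le
  intro z hz
  have hz0 : z ≠ 0 := by
    intro h0
    subst h0
    simp at hz
    exact hr.ne' hz.symm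
  simp only [smul_eq_mul, sub_zero]
  rw [show (-(k : ℤ) - 1) = -((k : ℤ) + 1) by ring, zpow_neg, zpow_add₀ hz0, zpow_natCast, zpow_one,
    mul_inv, one_div, inv_pow]
  ring

end

end Vale.Agent.P030.H204
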